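import Vale.Agent.Lib.P329.Tw.GroupB
import Vale.Agent.Lib.P329.Pseudovariety

open Vale.Agent.Lib.P329

/-- Every language recognized by a finite direct product of finite groups, each of which is nilpotent
or has an abelian normal subgroup with abelian quotient of prime exponent, has generalized star height
at most one. -/
theorem Vale.Agent.Results.P329.AB_products.result {S : Type} [Fintype S] {ι : Type} [Finite ι]
    {H : ι → Type} [∀ i, Group (H i)] [∀ i, Finite (H i)]
    (hH : ∀ i, Group.IsNilpotent (H i) ∨ Handled (H i))
    (φ : S → ∀ i, H i) (P : Set (∀ i, H i)) :
    ∃ E : GExpr S, sh E ≤ 1 ∧ lang E = {w : List S | (w.map φ).prod ∈ P} := by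
  classical
  have h1 : Meas (fun w : List S => (w.map φ).prod) := by
    have h2 : Meas (fun w : List S => fun i => (w.map (fun a => φ a i)).prod) :=
      Meas.dpi (fun i => by
        rcases hH i with h | h
        · exact Tw.nilpotent_meas (fun a => φ a i)
        · exact handled_meas h (fun a => φ a i))
    convert h2 using 1
    funext w
    funext i
    exact list_prod_apply φ w i
  exact h1.set P
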