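import Vale.Agent.Lib.P329c.ClassThree

namespace Vale.Agent.Results.P329.A_classThree

open Vale.Agent.Lib.P329c

/-- Every language over a finite alphabet recognized by a finite nilpotent group of class at most
three has generalized star height at most one. -/
theorem result {α : Type*} {G : Type*} [Finite α] [Group G] [Finite G] [Group.IsNilpotent G]
    (hG : Group.nilpotencyClass G ≤ 3) (g : α → G) (S : Set G) :
    HasGSH 1 ({w : List α | (w.map g).prod ∈ S} : Language α) :=
  hasGSH_classThree hG g S

end Vale.Agent.Results.P329.A_classThree
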