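import Vale.Agent.Lib.P329.Proofs

open Vale.Agent.Lib.P329

/-- Every language recognized by a finite group having an abelian subgroup of index at most two
has generalized star height at most one. -/
theorem Vale.Agent.Results.P329.A_main.result {S G : Type} [Fintype S] [Group G] [Finite G]
    (A : Subgroup G) (hA : ∀ a ∈ A, ∀ b ∈ A, a * b = b * a) (hi : A.index ≤ 2)
    (φ : S → G) (P : Set G) :
    ∃ E : GExpr S, sh E ≤ 1 ∧ lang E = {w : List S | (w.map φ).prod ∈ P} := by
  classical
  exact group_fibre A hA hi φ P
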