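import Vale.Agent.Lib.P329.PrimeIndex

open Vale.Agent.Lib.P329

/-- Every language recognized by a finite direct product of finite groups, each having an abelian
normal subgroup of index one or a prime, has generalized star height at most one. -/
theorem Vale.Agent.Results.P329.B_primeindex.result {S : Type} [Fintype S] {ι : Type} [Finite ι]
    {H : ι → Type} [∀ i, Group (H i)] [∀ i, Finite (H i)]
    (A : ∀ i, Subgroup (H i)) [∀ i, (A i).Normal]
    (hA : ∀ i, ∀ a ∈ A i, ∀ b ∈ A i, a * b = b * a)
    (hi : ∀ i, (A i).index = 1 ∨ (A i).index.Prime)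
    (φ : S → ∀ i, H i) (P : Set (∀ i, H i)) :
    ∃ E : GExpr S, sh E ≤ 1 ∧ lang E = {w : List S | (w.map φ).prod ∈ P} := by
  classical
  exact product_fibre A hA hi φ P
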