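import Vale.Agent.Lib.P329.Pseudovariety

open Vale.Agent.Lib.P329

/-- Every language recognized by a finite direct product of finite groups, each of which is
nilpotent of class at most three or has an abelian normal subgroup with abelian quotient of
prime exponent, has generalized star height at most one. -/
theorem Vale.Agent.Results.P329.D_products.result {S : Type} [Fintype S] {ι : Type} [Finite ι]
    {H : ι → Type} [∀ i, Group (H i)] [∀ i, Finite (H i)] (hH : ∀ i, Handled (H i))
    (φ : S → ∀ i, H i) (P : Set (∀ i, H i)) :
    ∃ E : GExpr S, sh E ≤ 1 ∧ lang E = {w : List S | (w.map φ).prod ∈ P} := by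
  classical
  exact handled_product hH φ P
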